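import Vale.Agent.P049.Alg

namespace Vale.Agent.Results.P049.Explicit

open Vale.Agent.P049

theorem result (d : ℕ) (hd : 3 ≤ d) : ∃ (out : ℕ → List (List Bool))
    (M : Turing.TM2ComputableInPolyTime codeUnary (codeList (codeList codeBool)) out),
    (∀ k, Finite (M.tm.Γ k)) ∧ ∃ n₀, ∀ n ≥ n₀, Even (d * n) →
      ∃ (G : SimpleGraph (Fin n)) (_ : DecidableRel G.Adj),
        out n = adjTable G ∧ IsRamanujan d G := construction hd

end Vale.Agent.Results.P049.Explicit
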